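import Vale.Agent.P065.U.H792.Trans

/-!
# P065: padding by points above; `k`-edges of small sets are halving edges (helper841)
-/

set_option autoImplicit false

namespace Vale.Agent.P065.R2.H841

open Finset Vale.Agent.P065.UB Vale.Agent.P065 Vale.Agent.P065.U.H792.Trans

/-- a good set is in general position -/
theorem genPos_of_good {P : Finset Pt} (hP : Good P) : GenPos P := by
  intro a ha b hb c hc hab hac hbc hcol
  rw [collinear_iff_of_mem (p₀ := a) (by simp)] at hcol
  obtain ⟨v, hv⟩ := hcol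
  obtain ⟨rb, hrb⟩ := hv b (by simp)
  obtain ⟨rc, hrc⟩ := hv c (by simp)
  have hb1 : b.1 = rb * v.1 + a.1 := by rw [hrb]; simp
  have hb2 : b.2 = rb * v.2 + a.2 := by rw [hrb]; simp
  have hc1 : c.1 = rc * v.1 + a.1 := by rw [hrc]; simp
  have hc2 : c.2 = rc * v.2 + a.2 := by rw [hrc]; simp
  have hne : a.1 ≠ b.1 := fun h => hab (hP.xinj a ha b hb h)
  have h1 : ht (sl a b) b = ht (sl a b) a := (ht_eq_iff hne _).2 rfl
  have h2 : (b.1 - a.1) * (ht (sl a b) c - ht (sl a b) a) = 0 := by
    rw [← orient_eq hne c]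
    unfold orient
    rw [hb1, hb2, hc1, hc2]
    ring
  have h3 : b.1 - a.1 ≠ 0 := sub_ne_zero.mpr (Ne.symm hne)
  have h4 : ht (sl a b) c = ht (sl a b) a := by
    rcases mul_eq_zero.1 h2 with h | h
    · exact absurd h h3
    · linarith
  exact hP.gen _ a ha b hb c hc hab hac hbc h1.symm h4.symm

/-- one more point, far above -/
theorem pad_one {B : Finset Pt} (hB : Good B) :
    ∃ B' : Finset Pt, Good B' ∧ #B' = #B + 1 ∧ ∀ k, Ed B k ⊆ Ed B' k := by
  classical
  obtain ⟨M, hM⟩ := (B.image Prod.fst).exists_le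
  obtain ⟨Y, hY⟩ := ((B ×ˢ B).image
    (fun e : Pt × Pt => ht (sl e.1 e.2) e.1 + sl e.1 e.2 * (M + 1))).exists_le
  have hx : ∀ p ∈ B, p.1 < M + 1 := by
    intro p hp
    have := hM p.1 (mem_image_of_mem _ hp)
    linarith
  set z : Pt := (M + 1, Y + 1) with hz
  have hz1 : z.1 = M + 1 := rfl
  have hz2 : z.2 = Y + 1 := rfl
  have habove : ∀ p ∈ B, ∀ q ∈ B, ht (sl p q) p < ht (sl p q) z := by
    intro p hp q hq
    have h1 := hY _ (mem_image_of_mem (fun e : Pt × Pt => ht (sl e.1 e.2) e.1 +
      sl e.1 e.2 * (M + 1)) (mem_product.2 ⟨hp, hq⟩ : (p, q) ∈ B ×ˢ B))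
    simp only at h1
    have h2 : ht (sl p q) z = (Y + 1) - sl p q * (M + 1) := by
      unfold ht
      rw [hz1, hz2]
    rw [h2]
    linarith
  have hzB : z ∉ B := by
    intro h
    have := hx z h
    rw [hz1] at this
    exact lt_irrefl _ this
  have key : ∀ (m : ℝ), ∀ p ∈ B, ∀ q ∈ B, p ≠ q → ht m p = ht m q → ht m p < ht m z := by
    intro m p hp q hq hpq h
    have hne : p.1 ≠ q.1 := fun h => hpq (hB.xinj p hp q hq h)
    have h1 : sl p q = m := (ht_eq_iff hne m).1 h.symm
    rw [← h1]
    exact habove p hp q hq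
  refine ⟨insert z B, ⟨?_, ?_⟩, ?_, ?_⟩
  · intro p hp q hq h
    rcases mem_insert.1 hp with rfl | hp
    · rcases mem_insert.1 hq with rfl | hq
      · rfl
      · have := hx q hq
        rw [← h, hz1] at this
        exact absurd this (lt_irrefl _)
    · rcases mem_insert.1 hq with rfl | hq
      · have := hx p hp
        rw [h, hz1] at this
        exact absurd this (lt_irrefl _)
      · exact hB.xinj p hp q hq h
  · intro m a ha b hb c hc hab hac hbc h1 h2
    rcases mem_insert.1 ha with ha' | ha'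
    · rcases mem_insert.1 hb with hb' | hb'
      · exact hab (ha'.trans hb'.symm)
      rcases mem_insert.1 hc with hc' | hc'
      · exact hac (ha'.trans hc'.symm)
      have := key m b hb' c hc' hbc (h1.symm.trans h2)
      rw [← h1, ha'] at this
      exact lt_irrefl _ this
    · rcases mem_insert.1 hb with hb' | hb'
      · rcases mem_insert.1 hc with hc' | hc'
        · exact hbc (hb'.trans hc'.symm)
        have := key m a ha' c hc' hac h2
        rw [h1, hb'] at this
        exact lt_irrefl _ this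
      · rcases mem_insert.1 hc with hc' | hc'
        · have := key m a ha' b hb' hab h1
          rw [h2, hc'] at this
          exact lt_irrefl _ this
        · exact hB.gen m a ha' b hb' c hc' hab hac hbc h1 h2
  · rw [card_insert_of_notMem hzB]
  · intro k e he
    obtain ⟨h1, h2, h3, h4⟩ := mem_Ed.1 he
    refine mem_Ed.2 ⟨mem_insert_of_mem h1, mem_insert_of_mem h2, h3, ?_⟩
    rw [← h4]
    unfold g0
    congr 1
    rw [Finset.filter_insert, if_neg]
    exact not_lt.2 (habove e.1 h1 e.2 h2).le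

/-- `t` more points, far above -/
theorem pad {B : Finset Pt} (hB : Good B) (t : ℕ) :
    ∃ B' : Finset Pt, Good B' ∧ #B' = #B + t ∧ ∀ k, Ed B k ⊆ Ed B' k := by
  induction t with
  | zero => exact ⟨B, hB, rfl, fun k => Subset.refl _⟩
  | succ t ih =>
    obtain ⟨B1, h1, h2, h3⟩ := ih
    obtain ⟨B2, h4, h5, h6⟩ := pad_one h1
    exact ⟨B2, h4, by omega, fun k => (h3 k).trans (h6 k)⟩

/-- the number of points above a `k`-edge -/
theorem card_above {P : Finset Pt} (hP : Good P) {k : ℕ} {e : Pt × Pt} (he : e ∈ Ed P k) :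
    k + #{u ∈ P | ht (sl e.1 e.2) e.1 < ht (sl e.1 e.2) u} + 2 = #P := by
  classical
  obtain ⟨h1, h2, h3, h4⟩ := mem_Ed.1 he
  unfold g0 at h4
  set m := sl e.1 e.2 with hm
  have hne : e.1 ≠ e.2 := fun h => by rw [h] at h3; exact lt_irrefl _ h3
  have e3 : ({u ∈ P | ht m u = ht m e.1} : Finset Pt) = {e.1, e.2} := by
    ext u
    simp only [mem_filter, mem_insert, mem_singleton]
    constructor
    · rintro ⟨hu, h5⟩
      by_contra hcon
      push Not at hcon
      exact hP.gen m e.1 h1 e.2 h2 u hu hne (Ne.symm hcon.1) (Ne.symm hcon.2)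
        (edge_ht e h3).symm h5.symm
    · rintro (rfl | rfl)
      · exact ⟨h1, rfl⟩
      · exact ⟨h2, edge_ht e h3⟩
  have e4 : #({e.1, e.2} : Finset Pt) = 2 := card_pair hne
  have e5 : P = ({u ∈ P | ht m u < ht m e.1} : Finset Pt) ∪
      (({u ∈ P | ht m e.1 < ht m u} : Finset Pt) ∪ {u ∈ P | ht m u = ht m e.1}) := by
    ext u
    simp only [mem_union, mem_filter]
    constructor
    · intro hu
      rcases lt_trichotomy (ht m u) (ht m e.1) with h | h | h
      · exact Or.inl ⟨hu, h⟩
      · exact Or.inr (Or.inr ⟨hu, h⟩)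
      · exact Or.inr (Or.inl ⟨hu, h⟩)
    · rintro (h | h | h) <;> exact h.1
  have e6 : #P = #({u ∈ P | ht m u < ht m e.1} : Finset Pt) +
      (#({u ∈ P | ht m e.1 < ht m u} : Finset Pt) + #({u ∈ P | ht m u = ht m e.1} : Finset Pt)) := by
    conv_lhs => rw [e5]
    rw [card_union_of_disjoint, card_union_of_disjoint]
    · rw [disjoint_left]
      intro u hu hu'
      have a1 := (mem_filter.1 hu).2
      have a2 := (mem_filter.1 hu').2
      rw [a2] at a1
      exact lt_irrefl _ a1
    · rw [disjoint_left]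
      intro u hu hu'
      have a1 := (mem_filter.1 hu).2
      rcases mem_union.1 hu' with h | h
      · have a2 := (mem_filter.1 h).2
        exact lt_irrefl _ (a1.trans a2)
      · have a2 := (mem_filter.1 h).2
        rw [a2] at a1
        exact lt_irrefl _ a1
  rw [e3, e4] at e6
  have e7 : #({u ∈ P | ht m u < ht m e.1} : Finset Pt) = k := by
    rw [← h4]
  omega

/-- a middle edge is a halving pair -/
theorem isHalving_of_mem {P : Finset Pt} (hP : Good P) {k : ℕ} (hk : 1 ≤ k) (hc : #P = 2 * k)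
    {e : Pt × Pt} (he : e ∈ Ed P (k - 1)) : IsHalving P e.1 e.2 := by
  classical
  have habove := card_above hP he
  obtain ⟨h1, h2, h3, h4⟩ := mem_Ed.1 he
  unfold g0 at h4
  have hpos : 0 < e.2.1 - e.1.1 := by linarith
  have e1 : ({c ∈ P | orient e.1 e.2 c < 0} : Finset Pt) =
      {c ∈ P | ht (sl e.1 e.2) c < ht (sl e.1 e.2) e.1} := by
    apply filter_congr
    intro c _
    rw [orient_eq h3.ne]
    constructor
    · intro h5
      by_contra h6
      have : 0 ≤ (e.2.1 - e.1.1) * (ht (sl e.1 e.2) c - ht (sl e.1 e.2) e.1) :=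
        mul_nonneg hpos.le (by linarith)
      linarith
    · intro h5
      exact mul_neg_of_pos_of_neg hpos (by linarith)
  have e2 : ({c ∈ P | 0 < orient e.1 e.2 c} : Finset Pt) =
      {c ∈ P | ht (sl e.1 e.2) e.1 < ht (sl e.1 e.2) c} := by
    apply filter_congr
    intro c _
    rw [orient_eq h3.ne]
    constructor
    · intro h5
      by_contra h6
      have : 0 ≤ (e.2.1 - e.1.1) * (ht (sl e.1 e.2) e.1 - ht (sl e.1 e.2) c) :=
        mul_nonneg hpos.le (by linarith)
      linarith
    · intro h5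
      exact mul_pos hpos (by linarith)
  refine ⟨fun h => ?_, ?_, ?_⟩
  · rw [h] at h3
    exact lt_irrefl _ h3
  · have e5 : #{c ∈ P | 0 < orient e.1 e.2 c} =
        #{c ∈ P | ht (sl e.1 e.2) e.1 < ht (sl e.1 e.2) c} := by rw [e2]
    have e6 : 2 * #{c ∈ P | ht (sl e.1 e.2) e.1 < ht (sl e.1 e.2) c} + 2 = #P := by
      omega
    rw [← e5] at e6
    exact e6
  · have e5 : #{c ∈ P | orient e.1 e.2 c < 0} =
        #{c ∈ P | ht (sl e.1 e.2) c < ht (sl e.1 e.2) e.1} := by rw [e1]
    have e6 : 2 * #{c ∈ P | ht (sl e.1 e.2) c < ht (sl e.1 e.2) e.1} + 2 = #P := by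
      have : #{c ∈ P | ht (sl e.1 e.2) c < ht (sl e.1 e.2) e.1} = k - 1 := by
        rw [← h4]
      omega
    rw [← e5] at e6
    exact e6

/-- the middle edges are counted by the halving number -/
theorem card_Ed_le_halvingNumber {P : Finset Pt} (hP : Good P) {k : ℕ} (hk : 1 ≤ k)
    (hc : #P = 2 * k) : #(Ed P (k - 1)) ≤ halvingNumber P := by
  classical
  unfold halvingNumber
  apply Finset.card_le_card_of_injOn (fun e => ({e.1, e.2} : Finset Pt))
  · intro e he
    have he' := mem_coe.1 he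
    obtain ⟨h1, h2, h3, h4⟩ := mem_Ed.1 he'
    have hne : e.1 ≠ e.2 := fun h => by rw [h] at h3; exact lt_irrefl _ h3
    refine mem_coe.2 (mem_filter.2 ⟨mem_powersetCard.2 ⟨?_, card_pair hne⟩, e.1, e.2, ?_,
      isHalving_of_mem hP hk hc he'⟩)
    · intro x hx
      rcases mem_insert.1 hx with rfl | hx
      · exact h1
      · rw [mem_singleton.1 hx]
        exact h2
    · ext x
      simp only [mem_insert, mem_singleton]
  · intro e he e' he' h
    obtain ⟨h1, h2, h3, h4⟩ := mem_Ed.1 (mem_coe.1 he)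
    obtain ⟨h1', h2', h3', h4'⟩ := mem_Ed.1 (mem_coe.1 he')
    simp only at h
    have a1 : e.1 ∈ ({e'.1, e'.2} : Finset Pt) := by
      rw [← h]
      exact mem_insert_self _ _
    have a2 : e.2 ∈ ({e'.1, e'.2} : Finset Pt) := by
      rw [← h]
      exact mem_insert_of_mem (mem_singleton_self _)
    rcases mem_insert.1 a1 with b1 | b1
    · rcases mem_insert.1 a2 with b2 | b2
      · rw [b1, b2] at h3
        exact absurd h3 (lt_irrefl _)
      · exact Prod.ext b1 (mem_singleton.1 b2)
    · have b1' := mem_singleton.1 b1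
      rcases mem_insert.1 a2 with b2 | b2
      · rw [b1', b2] at h3
        exact absurd (h3.trans h3') (lt_irrefl _)
      · rw [b1', mem_singleton.1 b2] at h3
        exact absurd h3 (lt_irrefl _)

/-- **the `(k - 1)`-edges of at most `2 k` points are at most `h(2 k)`** -/
theorem card_Ed_le_hmax {B : Finset Pt} (hB : Good B) {k : ℕ} (hk : 1 ≤ k) (hc : #B ≤ 2 * k) :
    #(Ed B (k - 1)) ≤ hmax (2 * k) := by
  obtain ⟨B', h1, h2, h3⟩ := pad hB (2 * k - #B)
  have h4 : #B' = 2 * k := by omega
  exact (card_le_card (h3 (k - 1))).trans ((card_Ed_le_halvingNumber h1 hk h4).trans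
    (halvingNumber_le_hmax h4 (genPos_of_good h1)))

end Vale.Agent.P065.R2.H841
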