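import Vale.Agent.P065.R2.H841.Red
import Vale.Agent.P065.R2.H841.Pad

/-!
# P065: `e_k(n) ≤ C (n / k) h(2 k)`, `h` is monotone and doubling (helper841)
-/

set_option autoImplicit false

namespace Vale.Agent.P065.R2.H841

open Finset Vale.Agent.P065.UB Vale.Agent.P065 Vale.Agent.P065.U.H792.Trans

/-- points on the parabola -/
def par (i : ℕ) : Pt := ((i : ℝ), (i : ℝ) ^ 2)

theorem par_inj : Function.Injective par := by
  intro i j h
  have h1 : (i : ℝ) = j := congrArg Prod.fst h
  exact_mod_cast h1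

theorem ht_par (m : ℝ) (i : ℕ) : ht m (par i) = i * ((i : ℝ) - m) := by
  unfold ht par
  ring

theorem good_par (N : ℕ) : Good ((range N).image par) := by
  classical
  constructor
  · intro p hp q hq h
    obtain ⟨i, _, rfl⟩ := mem_image.1 hp
    obtain ⟨j, _, rfl⟩ := mem_image.1 hq
    have h1 : (i : ℝ) = j := h
    have h2 : i = j := by exact_mod_cast h1
    rw [h2]
  · intro m a ha b hb c hc hab hac hbc h1 h2
    obtain ⟨i, _, rfl⟩ := mem_image.1 ha
    obtain ⟨j, _, rfl⟩ := mem_image.1 hb
    obtain ⟨l, _, rfl⟩ := mem_image.1 hc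
    rw [ht_par, ht_par] at h1 h2
    have e1 : (i : ℝ) ≠ j := fun h => hab (by rw [(by exact_mod_cast h : i = j)])
    have e2 : (i : ℝ) ≠ l := fun h => hac (by rw [(by exact_mod_cast h : i = l)])
    have e3 : (j : ℝ) ≠ l := fun h => hbc (by rw [(by exact_mod_cast h : j = l)])
    have f1 : ((i : ℝ) - j) * (i + j - m) = 0 := by linarith
    have f2 : ((i : ℝ) - l) * (i + l - m) = 0 := by linarith
    have g1 : (i : ℝ) + j - m = 0 := by
      rcases mul_eq_zero.1 f1 with h | h
      · exact absurd (sub_eq_zero.1 h) e1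
      · exact h
    have g2 : (i : ℝ) + l - m = 0 := by
      rcases mul_eq_zero.1 f2 with h | h
      · exact absurd (sub_eq_zero.1 h) e2
      · exact h
    exact e3 (by linarith)

/-- `h(2 k) ≥ 1` -/
theorem one_le_hmax {k : ℕ} (hk : 1 ≤ k) : 1 ≤ hmax (2 * k) := by
  classical
  have hk0 : (0 : ℝ) < k := by exact_mod_cast hk
  have hmem : (par 0, par k) ∈ Ed ((range (k + 1)).image par) (k - 1) := by
    refine mem_Ed.2 ⟨mem_image_of_mem _ (by simp), mem_image_of_mem _ (by simp), ?_, ?_⟩
    · show ((0 : ℕ) : ℝ) < (k : ℝ)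
      simpa using hk0
    · have hs : sl (par 0) (par k) = k := by
        unfold sl par
        simp only [Nat.cast_zero, ne_eq, OfNat.ofNat_ne_zero, not_false_eq_true, zero_pow, sub_zero]
        rw [pow_two, mul_div_assoc, div_self hk0.ne', mul_one]
      unfold g0
      simp only
      rw [hs]
      have e1 : ({u ∈ (range (k + 1)).image par | ht (k : ℝ) u < ht (k : ℝ) (par 0)} :
          Finset Pt) = (Finset.Ioo 0 k).image par := by
        ext u
        simp only [mem_filter, mem_image, mem_range, mem_Ioo]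
        constructor
        · rintro ⟨⟨i, hi, rfl⟩, h⟩
          rw [ht_par, ht_par] at h
          simp only [Nat.cast_zero, zero_mul] at h
          have h0 : i ≠ 0 := by
            rintro rfl
            simp at h
          have h1 : i ≠ k := by
            rintro rfl
            simp at h
          exact ⟨i, ⟨by omega, by omega⟩, rfl⟩
        · rintro ⟨i, ⟨h1, h2⟩, rfl⟩
          refine ⟨⟨i, by omega, rfl⟩, ?_⟩
          rw [ht_par, ht_par]
          simp only [Nat.cast_zero, zero_mul]
          have a1 : (0 : ℝ) < i := by exact_mod_cast h1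
          have a2 : (i : ℝ) < k := by exact_mod_cast h2
          exact mul_neg_of_pos_of_neg a1 (by linarith)
      rw [e1, card_image_of_injective _ par_inj, Nat.card_Ioo]
      omega
  have h1 : 1 ≤ #(Ed ((range (k + 1)).image par) (k - 1)) := card_pos.2 ⟨_, hmem⟩
  refine h1.trans (card_Ed_le_hmax (good_par _) hk ?_)
  rw [card_image_of_injective _ par_inj, card_range]
  omega

/-- **upper bound**: `(k + 1) e_k(n) ≤ 52 n h(2 k)` -/
theorem emax_upper {k n : ℕ} (hk : 1 ≤ k) (hn : 2 * k ≤ n) :
    ((k : ℝ) + 1) * emax k n ≤ 52 * n * hmax (2 * k) := by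
  have hkpos : (0 : ℝ) < (k : ℝ) + 1 := by positivity
  have h1 := emax_le n (k - 1) (by omega) (25 * n * hmax (2 * k) / (k + 1)) (by positivity) (by
    intro P hP hc
    rw [le_div_iff₀ hkpos]
    have := reduce hP k hk (by omega) (hmax (2 * k)) (fun B hB hcB => card_Ed_le_hmax hB hk hcB)
    rw [hc] at this
    have h2 : (((k + 1) * #(Ed P (k - 1)) : ℕ) : ℝ) ≤ ((25 * n * hmax (2 * k) : ℕ) : ℝ) := by
      exact_mod_cast this
    push_cast at h2
    linarith)
  rw [show k - 1 + 1 = k by omega] at h1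
  have h3 : (1 : ℝ) ≤ hmax (2 * k) := by exact_mod_cast one_le_hmax hk
  have h4 : (k : ℝ) + 1 ≤ n := by exact_mod_cast (by omega : k + 1 ≤ n)
  have h5 : ((k : ℝ) + 1) * (2 * (25 * n * hmax (2 * k) / (k + 1)) + 2) =
      50 * n * hmax (2 * k) + 2 * (k + 1) := by
    field_simp
    ring
  have h6 : ((k : ℝ) + 1) * emax k n ≤ 50 * n * hmax (2 * k) + 2 * (k + 1) := by
    rw [← h5]
    exact mul_le_mul_of_nonneg_left h1 hkpos.le
  have h7 : 2 * ((k : ℝ) + 1) ≤ 2 * n * hmax (2 * k) := by nlinarith
  linarith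

end Vale.Agent.P065.R2.H841
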