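import Vale.Agent.P065.Bdl.B1
import Vale.Agent.P065.R2.H841.Pad

/-!
# P065: `e_k(n) ≥ (n / (8 k)) h(2 k)` (helper841)

A maximum cut of the graph of halving edges makes it a good configuration in the sense of the
lower bound files, and copies of a good configuration give `k`-sets.
-/

set_option autoImplicit false

namespace Vale.Agent.P065.R2.H841

open Finset Vale.Agent.P065.UB Vale.Agent.P065 Vale.Agent.P065.U.H792.Trans

/-- the edge `e` crosses the cut `A` -/
def Crs {α : Type*} (A : Finset α) (e : α × α) : Prop :=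
  (e.1 ∈ A ∧ e.2 ∉ A) ∨ (e.1 ∉ A ∧ e.2 ∈ A)

open Classical in
/-- maximum cut -/
theorem exists_cut {α : Type*} (V : Finset α) (E : Finset (α × α))
    (hE : ∀ e ∈ E, e.1 ∈ V ∧ e.1 ≠ e.2) :
    ∃ A : Finset α, #E ≤ 2 * #{e ∈ E | Crs A e} := by
  by_contra hcon
  push Not at hcon
  have h1 : ∑ A ∈ V.powerset, 2 * #{e ∈ E | Crs A e} < ∑ A ∈ V.powerset, #E := by
    apply Finset.sum_lt_sum_of_nonempty
    · exact ⟨∅, empty_mem_powerset V⟩
    · intro A _
      exact hcon A
  have h2 : ∑ A ∈ V.powerset, #{e ∈ E | Crs A e} = ∑ e ∈ E, #{A ∈ V.powerset | Crs A e} := by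
    simp only [Finset.card_filter]
    rw [Finset.sum_comm]
  have h3 : ∀ e ∈ E, 2 * #{A ∈ V.powerset | Crs A e} = #V.powerset := by
    intro e he
    obtain ⟨hV, hne⟩ := hE e he
    have h4 : #{A ∈ V.powerset | Crs A e} = #{A ∈ V.powerset | ¬ Crs A e} := by
      have hmem1 : ∀ A : Finset α, e.1 ∈ symmDiff A {e.1} ↔ e.1 ∉ A := by
        intro A
        rw [Finset.mem_symmDiff, mem_singleton]
        tauto
      have hmem2 : ∀ A : Finset α, e.2 ∈ symmDiff A {e.1} ↔ e.2 ∈ A := by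
        intro A
        rw [Finset.mem_symmDiff, mem_singleton]
        have := hne.symm
        tauto
      have hsub : ∀ A : Finset α, A ⊆ V → symmDiff A {e.1} ⊆ V := by
        intro A hA x hx
        rw [Finset.mem_symmDiff, mem_singleton] at hx
        rcases hx with ⟨h, _⟩ | ⟨h, _⟩
        · exact hA h
        · rw [h]
          exact hV
      have hcr : ∀ A : Finset α, Crs (symmDiff A {e.1}) e ↔ ¬ Crs A e := by
        intro A
        unfold Crs
        rw [hmem1, hmem2]
        tauto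
      refine Finset.card_nbij' (fun A => symmDiff A {e.1}) (fun A => symmDiff A {e.1}) ?_ ?_ ?_ ?_
      · intro A hA
        obtain ⟨h5, h6⟩ := mem_filter.1 (mem_coe.1 hA)
        refine mem_coe.2 (mem_filter.2 ⟨mem_powerset.2 (hsub A (mem_powerset.1 h5)), ?_⟩)
        rw [hcr]
        exact not_not.2 h6
      · intro A hA
        obtain ⟨h5, h6⟩ := mem_filter.1 (mem_coe.1 hA)
        refine mem_coe.2 (mem_filter.2 ⟨mem_powerset.2 (hsub A (mem_powerset.1 h5)), ?_⟩)
        rw [hcr]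
        exact h6
      · intro A _
        simp only
        rw [symmDiff_assoc, symmDiff_self, symmDiff_bot]
      · intro A _
        simp only
        rw [symmDiff_assoc, symmDiff_self, symmDiff_bot]
    have h5 := Finset.card_filter_add_card_filter_not (s := V.powerset) (p := fun A => Crs A e)
    omega
  have h6 : ∑ A ∈ V.powerset, 2 * #{e ∈ E | Crs A e} = #E * #V.powerset := by
    rw [← Finset.mul_sum, h2, Finset.mul_sum, Finset.sum_congr rfl h3, Finset.sum_const,
      smul_eq_mul]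
  rw [h6, Finset.sum_const, smul_eq_mul, mul_comm] at h1
  exact lt_irrefl _ h1

theorem sg_eq (x : ℝ) : sg x = (if 0 < x then 1 else 0) - (if x < 0 then 1 else 0) := by
  unfold sg
  rcases lt_trichotomy x 0 with h | h | h
  · simp [h, not_lt.mpr h.le]
  · rw [h]; simp
  · simp [h, not_lt.mpr h.le]

/-- the middle edges of a good set, half of them, form a good configuration -/
theorem gc_of_good {P : Finset Pt} (hP : Good P) {k : ℕ} (hk : 1 ≤ k) (hc : #P = 2 * k) :
    ∃ V, GC (2 * k) V ∧ #(Ed P (k - 1)) ≤ 2 * V := by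
  classical
  obtain ⟨A, hA⟩ := exists_cut P (Ed P (k - 1)) (fun e he => by
    obtain ⟨h1, h2, h3, h4⟩ := mem_Ed.1 he
    exact ⟨h1, fun h => by rw [h] at h3; exact lt_irrefl _ h3⟩)
  set E : Finset (Pt × Pt) := {e ∈ Ed P (k - 1) | Crs A e} with hE
  have hEd : ∀ v : {e // e ∈ E}, v.1 ∈ Ed P (k - 1) := fun v => (mem_filter.1 v.2).1
  have hCr : ∀ v : {e // e ∈ E}, Crs A v.1 := fun v => (mem_filter.1 v.2).2
  have m1 : ∀ v : {e // e ∈ E}, v.1.1 ∈ P := fun v => (mem_Ed.1 (hEd v)).1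
  have m2 : ∀ v : {e // e ∈ E}, v.1.2 ∈ P := fun v => (mem_Ed.1 (hEd v)).2.1
  have hlt : ∀ v : {e // e ∈ E}, v.1.1.1 < v.1.2.1 := fun v => (mem_Ed.1 (hEd v)).2.2.1
  let qq : {e // e ∈ E} → {x // x ∈ P} := fun v =>
    if v.1.1 ∈ A then ⟨v.1.1, m1 v⟩ else ⟨v.1.2, m2 v⟩
  let pp : {e // e ∈ E} → {x // x ∈ P} := fun v =>
    if v.1.1 ∈ A then ⟨v.1.2, m2 v⟩ else ⟨v.1.1, m1 v⟩
  let C : Cfg {x // x ∈ P} {e // e ∈ E} :=
    { m := fun a => -a.1.1
      t := fun a => a.1.2
      w := fun _ => 1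
      σ := fun _ => 0
      q := qq
      p := pp
      x := fun v => sl v.1.1 v.1.2
      y := fun v => ht (sl v.1.1 v.1.2) v.1.1 }
  have hH : ∀ v a, C.H v a = ht (sl v.1.1 v.1.2) a.1 - ht (sl v.1.1 v.1.2) v.1.1 := by
    intro v a
    show -a.1.1 * sl v.1.1 v.1.2 + a.1.2 - ht (sl v.1.1 v.1.2) v.1.1 = _
    unfold ht
    ring
  have hq : ∀ v, (v.1.1 ∈ A ∧ (C.q v).1 = v.1.1 ∧ (C.p v).1 = v.1.2) ∨
      (v.1.1 ∉ A ∧ (C.q v).1 = v.1.2 ∧ (C.p v).1 = v.1.1) := by
    intro v
    by_cases h : v.1.1 ∈ A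
    · left
      refine ⟨h, ?_, ?_⟩
      · show (qq v).1 = v.1.1
        simp only [qq, if_pos h]
      · show (pp v).1 = v.1.2
        simp only [pp, if_pos h]
    · right
      refine ⟨h, ?_, ?_⟩
      · show (qq v).1 = v.1.2
        simp only [qq, if_neg h]
      · show (pp v).1 = v.1.1
        simp only [pp, if_neg h]
  have hht : ∀ v : {e // e ∈ E}, ht (sl v.1.1 v.1.2) v.1.2 = ht (sl v.1.1 v.1.2) v.1.1 :=
    fun v => edge_ht v.1 (hlt v)
  have hqA : ∀ v, (C.q v).1 ∈ A := by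
    intro v
    rcases hq v with ⟨h1, h2, _⟩ | ⟨h1, h2, _⟩
    · rw [h2]; exact h1
    · rw [h2]
      rcases hCr v with h | h
      · exact absurd h.1 h1
      · exact h.2
  have hpA : ∀ v, (C.p v).1 ∉ A := by
    intro v
    rcases hq v with ⟨h1, _, h2⟩ | ⟨h1, _, h2⟩
    · rw [h2]
      rcases hCr v with h | h
      · exact h.2
      · exact absurd h1 h.1
    · rw [h2]; exact h1
  have hgood : C.Good := by
    refine ⟨?_, ?_, ?_, fun _ => rfl, fun _ => rfl, ?_, ?_, ?_, ?_⟩
    · intro v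
      rw [hH]
      rcases hq v with ⟨_, h2, _⟩ | ⟨_, h2, _⟩
      · rw [h2]; ring
      · rw [h2, hht v]; ring
    · intro v
      rw [hH]
      rcases hq v with ⟨_, _, h2⟩ | ⟨_, _, h2⟩
      · rw [h2, hht v]; ring
      · rw [h2]; ring
    · intro v
      show -(C.p v).1.1 - -(C.q v).1.1 ≠ 0
      have := hlt v
      rcases hq v with ⟨_, h2, h3⟩ | ⟨_, h2, h3⟩
      · rw [h2, h3]
        intro h
        linarith
      · rw [h2, h3]
        intro h
        linarith
    · intro v v' h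
      apply hpA v'
      rw [← h]
      exact hqA v
    · intro v v' h h'
      have e1 : (C.q v).1 = (C.q v').1 := by rw [h]
      have e2 : (C.p v).1 = (C.p v').1 := by rw [h']
      have l1 := hlt v
      have l2 := hlt v'
      apply Subtype.ext
      rcases hq v with ⟨_, h2, h3⟩ | ⟨_, h2, h3⟩
      · rcases hq v' with ⟨_, h4, h5⟩ | ⟨_, h4, h5⟩
        · rw [h2, h4] at e1
          rw [h3, h5] at e2
          exact Prod.ext e1 e2
        · rw [h2, h4] at e1
          rw [h3, h5] at e2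
          rw [e1, e2] at l1
          exact absurd (l1.trans l2) (lt_irrefl _)
      · rcases hq v' with ⟨_, h4, h5⟩ | ⟨_, h4, h5⟩
        · rw [h2, h4] at e1
          rw [h3, h5] at e2
          rw [e1, e2] at l1
          exact absurd (l1.trans l2) (lt_irrefl _)
        · rw [h2, h4] at e1
          rw [h3, h5] at e2
          exact Prod.ext e2 e1
    · intro v a ha ha'
      rw [hH]
      have hne1 : a.1 ≠ v.1.1 ∧ a.1 ≠ v.1.2 := by
        rcases hq v with ⟨_, h2, h3⟩ | ⟨_, h2, h3⟩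
        · exact ⟨fun h => ha (Subtype.ext (h.trans h2.symm)),
            fun h => ha' (Subtype.ext (h.trans h3.symm))⟩
        · exact ⟨fun h => ha' (Subtype.ext (h.trans h3.symm)),
            fun h => ha (Subtype.ext (h.trans h2.symm))⟩
      have hne2 : v.1.1 ≠ v.1.2 := fun h => by
        have := hlt v
        rw [h] at this
        exact lt_irrefl _ this
      have := hP.gen (sl v.1.1 v.1.2) v.1.1 (m1 v) v.1.2 (m2 v) a.1 a.2 hne2 hne1.1.symm
        hne1.2.symm (hht v).symm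
      intro h
      exact this (by linarith)
    · intro v
      have hab := card_above hP (hEd v)
      have hbe : #{u ∈ P | ht (sl v.1.1 v.1.2) u < ht (sl v.1.1 v.1.2) v.1.1} = k - 1 := by
        have := (mem_Ed.1 (hEd v)).2.2.2
        unfold g0 at this
        rw [← this]
      have e1 : ∑ a : {x // x ∈ P}, ((C.w a : ℕ) : ℤ) * sg (C.H v a) =
          ∑ u ∈ P, sg (ht (sl v.1.1 v.1.2) u - ht (sl v.1.1 v.1.2) v.1.1) := by
        rw [← Finset.sum_coe_sort P
          (fun u => sg (ht (sl v.1.1 v.1.2) u - ht (sl v.1.1 v.1.2) v.1.1))]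
        apply Finset.sum_congr rfl
        intro a _
        rw [hH]
        show ((1 : ℕ) : ℤ) * _ = _
        rw [Nat.cast_one, one_mul]
      rw [e1, Finset.sum_congr rfl fun u _ => sg_eq _, Finset.sum_sub_distrib]
      simp only [Finset.sum_boole]
      have f1 : ({u ∈ P | 0 < ht (sl v.1.1 v.1.2) u - ht (sl v.1.1 v.1.2) v.1.1} : Finset Pt) =
          {u ∈ P | ht (sl v.1.1 v.1.2) v.1.1 < ht (sl v.1.1 v.1.2) u} := by
        apply filter_congr
        intro u _
        exact sub_pos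
      have f2 : ({u ∈ P | ht (sl v.1.1 v.1.2) u - ht (sl v.1.1 v.1.2) v.1.1 < 0} : Finset Pt) =
          {u ∈ P | ht (sl v.1.1 v.1.2) u < ht (sl v.1.1 v.1.2) v.1.1} := by
        apply filter_congr
        intro u _
        exact sub_neg
      rw [f1, f2, hbe]
      have f3 : #{u ∈ P | ht (sl v.1.1 v.1.2) v.1.1 < ht (sl v.1.1 v.1.2) u} = k - 1 := by
        omega
      rw [f3]
      simp
  refine ⟨Fintype.card {e // e ∈ E}, ⟨_, _, inferInstance, inferInstance, C, hgood, ?_, rfl⟩, ?_⟩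
  · show ∑ _a : {x // x ∈ P}, 1 = 2 * k
    rw [Finset.sum_const, smul_eq_mul, mul_one, Finset.card_univ, Fintype.card_coe]
    exact hc
  · rw [Fintype.card_coe]
    exact hA

/-- `h(2 k) ≤ 2 g(2 k)` -/
theorem hmax_le_gmax {k : ℕ} (hk : 1 ≤ k) : hmax (2 * k) ≤ 2 * gmax (2 * k) := by
  classical
  by_cases hne : {m | ∃ P : Finset (ℝ × ℝ), P.card = 2 * k ∧ GenPos P ∧
      halvingNumber P = m}.Nonempty
  · obtain ⟨P, hP, hg, hm⟩ := Nat.sSup_mem hne (bddAbove_hmax (2 * k))
    obtain ⟨ε, hε⟩ := exists_shear P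
    have h1 := good_shear hg hε
    have h2 := halvingNumber_shear (P := P) ε
    have h3 := halvingNumber_le h1
    have hn : #(P.image (sh ε)) = 2 * k := by rw [card_image_sh, hP]
    rw [hn, show (2 * k - 2) / 2 = k - 1 by omega] at h3
    obtain ⟨V, hV, hV2⟩ := gc_of_good h1 hk hn
    have h4 : V ≤ gmax (2 * k) := le_csSup (bdd_GC _) hV
    have h5 : hmax (2 * k) ≤ #(Ed (P.image (sh ε)) (k - 1)) := by
      unfold hmax
      rw [← hm]
      exact h2.trans h3
    omega
  · unfold hmax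
    rw [Set.not_nonempty_iff_eq_empty.mp hne, csSup_empty]
    exact Nat.zero_le _

/-- **lower bound**: `n h(2 k) ≤ 8 k e_k(n)` -/
theorem emax_lower2 {k n : ℕ} (hk : 1 ≤ k) (hn : 2 * k ≤ n) :
    n * hmax (2 * k) ≤ 8 * k * emax k n := by
  have h1 : 2 * k * (n / (2 * k)) ≤ n := Nat.mul_div_le _ _
  have h2 := mul_gmax_le_emax k n (n / (2 * k)) h1
  have h3 := hmax_le_gmax hk
  have h4 : 1 ≤ n / (2 * k) := (Nat.one_le_div_iff (by omega)).2 hn
  have h5 : n < 2 * k * (n / (2 * k)) + 2 * k := by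
    have := Nat.lt_mul_div_succ n (show 0 < 2 * k by omega)
    rw [Nat.mul_add, mul_one] at this
    exact this
  have h6 : n ≤ 4 * k * (n / (2 * k)) := by
    have : 2 * k ≤ 2 * k * (n / (2 * k)) := Nat.le_mul_of_pos_right _ h4
    have h7 : 4 * k * (n / (2 * k)) = 2 * k * (n / (2 * k)) + 2 * k * (n / (2 * k)) := by ring
    omega
  calc n * hmax (2 * k) ≤ 4 * k * (n / (2 * k)) * (2 * gmax (2 * k)) := Nat.mul_le_mul h6 h3
    _ = 8 * k * (n / (2 * k) * gmax (2 * k)) := by ring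
    _ ≤ 8 * k * emax k n := Nat.mul_le_mul_left _ h2

end Vale.Agent.P065.R2.H841
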