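import Vale.Agent.P065.R2.H841.Up
import Vale.Agent.P065.R2.H841.Low

/-!
# P065: regularity of `h` (helper841)

`h(2 m) / m ≤ 32 h(2 k) / k` for `m ≤ k`, and `h(2 k) ≤ 14400 h(2 m)` for `k ≤ 2 m`.
-/

set_option autoImplicit false

namespace Vale.Agent.P065.R2.H841

open Finset Vale.Agent.P065.UB Vale.Agent.P065 Vale.Agent.P065.U.H792.Trans

/-- a good set with `h(2 k)` middle edges -/
theorem hmax_witness {k : ℕ} (hk : 1 ≤ k) :
    ∃ P : Finset Pt, Good P ∧ #P = 2 * k ∧ hmax (2 * k) ≤ #(Ed P (k - 1)) := by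
  classical
  have hne : {m | ∃ P : Finset (ℝ × ℝ), P.card = 2 * k ∧ GenPos P ∧
      halvingNumber P = m}.Nonempty :=
    ⟨_, (range (2 * k)).image par, by rw [card_image_of_injective _ par_inj, card_range],
      genPos_of_good (good_par _), rfl⟩
  obtain ⟨P, hP, hg, hm⟩ := Nat.sSup_mem hne (bddAbove_hmax (2 * k))
  obtain ⟨ε, hε⟩ := exists_shear P
  have h1 := good_shear hg hε
  have h2 := halvingNumber_shear (P := P) ε
  have h3 := halvingNumber_le h1
  have hn : #(P.image (sh ε)) = 2 * k := by rw [card_image_sh, hP]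
  rw [hn, show (2 * k - 2) / 2 = k - 1 by omega] at h3
  refine ⟨P.image (sh ε), h1, hn, ?_⟩
  unfold hmax
  rw [← hm]
  exact h2.trans h3

/-- the edges seen from above -/
theorem card_Ed_flip {B : Finset Pt} (hB : Good B) {m k : ℕ} (hm : 1 ≤ m) (hk : 1 ≤ k)
    (hc : #B ≤ k + m) :
    ∃ B' : Finset Pt, Good B' ∧ #B' = k + m ∧ #(Ed B (m - 1)) ≤ #(Ed B' (k - 1)) := by
  classical
  obtain ⟨B1, h1, h2, h3⟩ := pad hB (k + m - #B)
  have h4 : #B1 = k + m := by omega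
  have h5 := card_Ed_mir h1 (k := k - 1) (by omega)
  rw [show #B1 - (k - 1) - 2 = m - 1 by omega] at h5
  refine ⟨B1.image mir, good_mir h1, ?_, (card_le_card (h3 (m - 1))).trans h5⟩
  rw [card_image_of_injective _ mir_inj, h4]

/-- `(m - 1)`-edges of at most `k + m` points, `m ≤ k` -/
theorem card_Ed_side {B : Finset Pt} (hB : Good B) {m k : ℕ} (hm : 1 ≤ m) (hmk : m ≤ k)
    (hc : #B ≤ k + m) : #(Ed B (m - 1)) ≤ hmax (2 * k) := by
  obtain ⟨B', h1, h2, h3⟩ := card_Ed_flip hB hm (hm.trans hmk) hc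
  exact h3.trans (card_Ed_le_hmax h1 (hm.trans hmk) (by omega))

/-- `h` is monotone on the even numbers -/
theorem hmax_mono {m k : ℕ} (hm : 1 ≤ m) (hmk : m ≤ k) : hmax (2 * m) ≤ hmax (2 * k) := by
  obtain ⟨P, h1, h2, h3⟩ := hmax_witness hm
  exact h3.trans (card_Ed_side h1 hm hmk (by omega))

/-- `h(n) / n` is increasing up to a constant factor -/
theorem hmax_ratio {m k : ℕ} (hm : 1 ≤ m) (hmk : m ≤ k) :
    (k + m) * hmax (2 * m) ≤ 32 * m * hmax (2 * k) := by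
  have h1 := emax_lower2 (k := m) (n := k + m) hm (by omega)
  have h2 := emax_le (k + m) (m - 1) (by omega) (hmax (2 * k)) (by positivity) (by
    intro P hP hc
    exact_mod_cast card_Ed_side hP hm hmk (by omega))
  rw [show m - 1 + 1 = m by omega] at h2
  have h3 : emax m (k + m) ≤ 2 * hmax (2 * k) + 2 := by exact_mod_cast h2
  have h4 := one_le_hmax (hm.trans hmk)
  calc (k + m) * hmax (2 * m) ≤ 8 * m * emax m (k + m) := h1
    _ ≤ 8 * m * (4 * hmax (2 * k)) := Nat.mul_le_mul_left _ (by omega)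
    _ = 32 * m * hmax (2 * k) := by ring

/-- `h` is doubling -/
theorem hmax_doubling {m k : ℕ} (hm : 1 ≤ m) (hmk : m ≤ k) (hkm : k ≤ 2 * m) :
    hmax (2 * k) ≤ 14400 * hmax (2 * m) := by
  obtain ⟨P, h1, h2, h3⟩ := hmax_witness (hm.trans hmk)
  have ha : 1 ≤ (m + 1) / 2 := by omega
  obtain ⟨r, B, hB1, hB2, hr, hsum⟩ := decomp2 h1 (k - 1) ((m + 1) / 2) (m / 2) ha
  have hpiece : ∀ i, #(Ed (B i) (k - 1)) ≤ 75 * hmax (2 * m) := by
    intro i
    have hc : #(B i) ≤ m + k := by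
      have := hB2 i
      omega
    obtain ⟨B', h4, h5, h6⟩ := card_Ed_flip (H882.good_mono h1 (hB1 i)) (hm.trans hmk) hm hc
    have h7 := reduce h4 m hm (by omega) (hmax (2 * m))
      (fun D hD hcD => card_Ed_le_hmax hD hm hcD)
    rw [h5] at h7
    have h8 : (m + 1) * #(Ed B' (m - 1)) ≤ (m + 1) * (75 * hmax (2 * m)) := by
      calc (m + 1) * #(Ed B' (m - 1)) ≤ 25 * (m + k) * hmax (2 * m) := h7
        _ ≤ 25 * (3 * (m + 1)) * hmax (2 * m) :=
          Nat.mul_le_mul_right _ (Nat.mul_le_mul_left _ (by omega))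
        _ = (m + 1) * (75 * hmax (2 * m)) := by ring
    exact h6.trans (Nat.le_of_mul_le_mul_left h8 (by omega))
  have hr2 : r + 1 ≤ 192 := by
    have e1 : k - 1 + (m + 1) / 2 + 1 ≤ 3 * m := by omega
    have e2 : m ≤ 2 * ((m + 1) / 2) := by omega
    have e3 : m + 1 ≤ 2 * (m / 2 + 1) := by omega
    have e4 : m * ((m + 1) * r) ≤ m * (192 * m) := by
      calc m * ((m + 1) * r) ≤ 2 * ((m + 1) / 2) * (2 * (m / 2 + 1) * r) :=
            Nat.mul_le_mul e2 (Nat.mul_le_mul_right _ e3)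
        _ = 4 * ((m + 1) / 2 * (m / 2 + 1) * r) := by ring
        _ ≤ 4 * (4 * #P * (k - 1 + (m + 1) / 2 + 1)) := Nat.mul_le_mul_left _ hr
        _ ≤ 4 * (4 * (4 * m) * (3 * m)) :=
            Nat.mul_le_mul_left _ (Nat.mul_le_mul (Nat.mul_le_mul_left _ (by omega)) e1)
        _ = m * (192 * m) := by ring
    have e5 : (m + 1) * r ≤ 192 * m := Nat.le_of_mul_le_mul_left e4 (by omega)
    by_contra hcon
    have e6 : (m + 1) * 192 ≤ (m + 1) * r := Nat.mul_le_mul_left _ (by omega)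
    omega
  calc hmax (2 * k) ≤ #(Ed P (k - 1)) := h3
    _ ≤ ∑ i ∈ range (r + 1), #(Ed (B i) (k - 1)) := hsum
    _ ≤ ∑ i ∈ range (r + 1), 75 * hmax (2 * m) := Finset.sum_le_sum fun i _ => hpiece i
    _ = (r + 1) * (75 * hmax (2 * m)) := by rw [Finset.sum_const, card_range, smul_eq_mul]
    _ ≤ 192 * (75 * hmax (2 * m)) := Nat.mul_le_mul_right _ hr2
    _ = 14400 * hmax (2 * m) := by ring

end Vale.Agent.P065.R2.H841
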