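import Vale.Agent.P065.H882.KDep

/-!
# P065: `k`-edges are halving edges of small sets (helper841)

`decomp2`: the `k`-edges of `P` are distributed to few sets of at most `k + a + b + 1` points.
-/

set_option autoImplicit false

namespace Vale.Agent.P065.R2.H841

open Finset Vale.Agent.P065.UB Vale.Agent.P065.H882

/-- a level between `k + 1` and `k + a` with few edges -/
theorem exists_level2 {P : Finset Pt} (hP : Good P) (k a : ℕ) (ha : 1 ≤ a) :
    ∃ j, k + 1 ≤ j ∧ j ≤ k + a ∧ a * #(Ed P j) ≤ 4 * #P * (k + a + 1) := by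
  by_contra hcon
  push Not at hcon
  have h := clarkson_shor hP (k + a)
  have h1 : ∑ j ∈ Finset.Ico (k + 1) (k + a + 1), (4 * #P * (k + a + 1) + 1) ≤
      ∑ j ∈ Finset.Ico (k + 1) (k + a + 1), a * #(Ed P j) := by
    apply Finset.sum_le_sum
    intro j hj
    have := Finset.mem_Ico.1 hj
    exact hcon j this.1 (by omega)
  have h2 : ∑ j ∈ Finset.Ico (k + 1) (k + a + 1), #(Ed P j) ≤
      ∑ j ∈ range (k + a + 1), #(Ed P j) := by
    apply Finset.sum_le_sum_of_subset
    intro j hj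
    have := Finset.mem_Ico.1 hj
    rw [Finset.mem_range]
    omega
  rw [Finset.sum_const, Nat.card_Ico, smul_eq_mul, ← Finset.mul_sum] at h1
  have h3 : k + a + 1 - (k + 1) = a := by omega
  rw [h3] at h1
  have h4 : 4 * #P * (k + a + 1) + 1 ≤ ∑ j ∈ Finset.Ico (k + 1) (k + a + 1), #(Ed P j) :=
    Nat.le_of_mul_le_mul_left h1 (by omega)
  omega

/-- **decomposition** with two parameters -/
theorem decomp2 {P : Finset Pt} (hP : Good P) (k a b : ℕ) (ha : 1 ≤ a) :
    ∃ (r : ℕ) (B : ℕ → Finset Pt), (∀ i, B i ⊆ P) ∧ (∀ i, #(B i) ≤ k + a + 1 + b) ∧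
      a * (b + 1) * r ≤ 4 * #P * (k + a + 1) ∧
      #(Ed P k) ≤ ∑ i ∈ range (r + 1), #(Ed (B i) k) := by
  classical
  obtain ⟨j, hj1, hj2, hj3⟩ := exists_level2 hP k a ha
  obtain ⟨cnt, hcnt⟩ : ∃ cnt : Pt × Pt → ℕ, ∀ e, cnt e =
      #{f ∈ Ed P j | sl f.1 f.2 < sl e.1 e.2} := ⟨_, fun _ => rfl⟩
  have hpiece : ∀ i, ∃ B : Finset Pt, B ⊆ P ∧ #B ≤ j + 1 + b ∧
      ({e ∈ Ed P k | cnt e / (b + 1) = i} : Finset (Pt × Pt)) ⊆ Ed B k := by
    intro i
    apply piece hP hj1 _ (filter_subset _ _)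
    intro e he e' he'
    obtain ⟨_, h1⟩ := mem_filter.1 he
    obtain ⟨_, h2⟩ := mem_filter.1 he'
    have h3 : cnt e' < cnt e + (b + 1) := by
      have a1 := Nat.div_add_mod (cnt e) (b + 1)
      have a2 := Nat.div_add_mod (cnt e') (b + 1)
      have a3 : cnt e' % (b + 1) < b + 1 := Nat.mod_lt (cnt e') (Nat.succ_pos b)
      rw [h1] at a1
      rw [h2] at a2
      generalize (b + 1) * i = x at a1 a2
      omega
    have h4 : cnt e + #{f ∈ Ed P j | sl e.1 e.2 ≤ sl f.1 f.2 ∧ sl f.1 f.2 < sl e'.1 e'.2} ≤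
        max (cnt e) (cnt e') := by
      by_cases h5 : sl e.1 e.2 < sl e'.1 e'.2
      · refine le_trans ?_ (le_max_right _ _)
        rw [hcnt e, hcnt e', ← Finset.card_union_of_disjoint]
        · apply Finset.card_le_card
          intro f hf
          rw [mem_union, mem_filter, mem_filter] at hf
          rw [mem_filter]
          rcases hf with hf | hf
          · exact ⟨hf.1, hf.2.trans h5⟩
          · exact ⟨hf.1, hf.2.2⟩
        · rw [Finset.disjoint_left]
          intro f hf hf'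
          rw [mem_filter] at hf hf'
          exact absurd hf.2 (not_lt.2 hf'.2.1)
      · refine le_trans (le_of_eq ?_) (le_max_left _ _)
        have : ({f ∈ Ed P j | sl e.1 e.2 ≤ sl f.1 f.2 ∧ sl f.1 f.2 < sl e'.1 e'.2} :
            Finset (Pt × Pt)) = ∅ := by
          rw [filter_eq_empty_iff]
          intro f _ hf
          exact h5 (lt_of_le_of_lt hf.1 hf.2)
        rw [this, card_empty, add_zero]
    rcases le_total (cnt e) (cnt e') with h6 | h6
    · rw [max_eq_right h6] at h4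
      omega
    · rw [max_eq_left h6] at h4
      omega
  choose B hB1 hB2 hB3 using hpiece
  refine ⟨#(Ed P j) / (b + 1), B, hB1, fun i => (hB2 i).trans (by omega), ?_, ?_⟩
  · calc a * (b + 1) * (#(Ed P j) / (b + 1)) = a * ((b + 1) * (#(Ed P j) / (b + 1))) := by ring
      _ ≤ a * #(Ed P j) := Nat.mul_le_mul_left _ (Nat.mul_div_le _ _)
      _ ≤ _ := hj3
  have hmaps : Set.MapsTo (fun e => cnt e / (b + 1)) (↑(Ed P k) : Set (Pt × Pt))
      (↑(range (#(Ed P j) / (b + 1) + 1)) : Set ℕ) := by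
    intro e _
    rw [Finset.mem_coe, mem_range]
    apply Nat.lt_succ_of_le
    apply Nat.div_le_div_right
    rw [hcnt]
    exact card_le_card (filter_subset _ _)
  rw [Finset.card_eq_sum_card_fiberwise hmaps]
  apply Finset.sum_le_sum
  intro i _
  exact card_le_card (hB3 i)

/-- **one-sided reduction**: a bound `F` for the `(k - 1)`-edges of sets of at most `2 k` points
gives the bound `25 n F / (k + 1)` for the `(k - 1)`-edges of `n` points. -/
theorem reduce {P : Finset Pt} (hP : Good P) (k : ℕ) (hk : 1 ≤ k) (hkn : k + 1 ≤ #P) (F : ℕ)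
    (hF : ∀ B : Finset Pt, Good B → #B ≤ 2 * k → #(Ed B (k - 1)) ≤ F) :
    (k + 1) * #(Ed P (k - 1)) ≤ 25 * #P * F := by
  have ha : 1 ≤ (k + 1) / 2 := by omega
  obtain ⟨r, B, hB1, hB2, hr, hsum⟩ := decomp2 hP (k - 1) ((k + 1) / 2) (k / 2) ha
  have h1 : #(Ed P (k - 1)) ≤ (r + 1) * F := by
    refine hsum.trans ?_
    calc ∑ i ∈ range (r + 1), #(Ed (B i) (k - 1)) ≤ ∑ i ∈ range (r + 1), F := by
          apply Finset.sum_le_sum
          intro i _
          apply hF (B i) (good_mono hP (hB1 i))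
          have := hB2 i
          omega
      _ = (r + 1) * F := by rw [Finset.sum_const, card_range, smul_eq_mul]
  have h2 : k - 1 + (k + 1) / 2 + 1 ≤ 3 * ((k + 1) / 2) := by omega
  have h3 : (k / 2 + 1) * r ≤ 12 * #P := by
    have h4 : (k + 1) / 2 * ((k / 2 + 1) * r) ≤ (k + 1) / 2 * (12 * #P) := by
      calc (k + 1) / 2 * ((k / 2 + 1) * r) = (k + 1) / 2 * (k / 2 + 1) * r := by ring
        _ ≤ 4 * #P * (k - 1 + (k + 1) / 2 + 1) := hr
        _ ≤ 4 * #P * (3 * ((k + 1) / 2)) := Nat.mul_le_mul_left _ h2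
        _ = (k + 1) / 2 * (12 * #P) := by ring
    exact Nat.le_of_mul_le_mul_left h4 (by omega)
  have h5 : (k + 1) * r ≤ 24 * #P := by
    have h6 : k + 1 ≤ 2 * (k / 2 + 1) := by omega
    calc (k + 1) * r ≤ 2 * (k / 2 + 1) * r := Nat.mul_le_mul_right _ h6
      _ = 2 * ((k / 2 + 1) * r) := by ring
      _ ≤ 2 * (12 * #P) := Nat.mul_le_mul_left _ h3
      _ = 24 * #P := by ring
  calc (k + 1) * #(Ed P (k - 1)) ≤ (k + 1) * ((r + 1) * F) := Nat.mul_le_mul_left _ h1
    _ = ((k + 1) * r + (k + 1)) * F := by ring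
    _ ≤ (24 * #P + #P) * F := Nat.mul_le_mul_right _ (by omega)
    _ = 25 * #P * F := by ring

end Vale.Agent.P065.R2.H841
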